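import Vale.Agent.Lib.P038.SatK.Shapes.S4_3_0f
noncomputable section
namespace Vale.Agent.Lib.P038.SatK.I.P4_3
open Vale.Agent.Lib.P038.Sat Vale.Agent.Lib.P038.SatK
def W : Nat := 76
def M : Nat := 75557863725914323419135
def GT : Nat := 17851942541653137790821746107341088984806465443653832681697135283300426117827429287603835171621132545978625244754114049251661200683273483386314696238033364377336168383571962008882306388399695580320386874671905686327603628723892921097152964533525139706055794660747018567244401659504592118565331836178456592219795475866623922292943550744889823715687301300725094880367199623164503169590337761758836795354597181494293622173956296092654168810915205860196398381271061449712145853426851731355877780634463780947683954350702332015838533155391831676849223170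
def h0 : T := (T.l (nat_lit 0))
def H : T := h0
theorem hlast : getB H 0 = 0 := by decide +kernel
end Vale.Agent.Lib.P038.SatK.I.P4_3
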